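import Vale.Agent.Lib.P154.ST3.Prog

/-! Generated certificates. -/

namespace Vale.Agent.Lib.P154

namespace ST3

open Tr in
theorem tc6 : chk TK3c [] (s2 l (s1 (s2 l (s2 l (s0 (s2 l (s1 (s0 l l) (s0 l l))) (s2 l (s1 (s1 l l) (s1 l l)))))) (s2 l (s2 l (s0 (s2 l (s1 (s0 (s1 l l) l) (s0 l l))) (s2 l (s1 (s1 l l) (s1 l l))))))))
    (Bx.mk 281474999779328 2097152 281475123511296 12582912 281475121311744 10383360 281474976710656 0) = true := by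
  decide +kernel

open Tr in
theorem tc7 : chk TK3c [] (s1 (s2 l (s0 (s2 l (s2 l (s0 (s1 l l) (s1 l l)))) (s0 (s1 l l) l))) (s2 l (s0 (s2 l (s2 l (s0 (s1 l l) (s1 l l)))) (s2 l (s0 (s1 l l) l)))))
    (Bx.mk 281475006070784 4194304 281475123511296 12582912 281475121311744 10383360 281474976710656 0) = true := by
  decide +kernel

open Tr in
theorem tc8 : chk TK3c [] (s0 (s0 (s2 l (s1 (s2 l (s2 l (s0 (s2 l (s1 (s0 l l) (s1 l l))) (s2 l (s1 (s1 l l) (s1 l l)))))) (s2 l (s2 l (s0 (s1 l l) (s1 l l)))))) (s2 l (s1 (s2 l (s2 l (s0 (s1 (s1 l l) l) (s1 l l)))) (s2 l (s2 l (s1 (s0 l l) (s1 l l))))))) (s1 (s2 l (s0 (s2 l (s2 l (s1 (s0 l l) (s1 l l)))) (s1 (s2 l l) l))) (s2 l (s2 l (s0 (s1 (s1 l l) l) (s1 l l))))))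
    (Bx.mk 281475001876480 8388608 281475148677120 12582912 281475121311744 10383360 281474976710656 0) = true := by
  decide +kernel

open Tr in
theorem tc9 : chk TK3c [] (s1 (s0 (s1 (s2 l (s0 (s2 l (s2 l (s1 (s1 l l) l))) (s2 l (s1 (s1 l l) l)))) (s2 l (s2 l (s0 (s1 l l) (s1 l l))))) (s1 (s2 l (s2 l (s0 (s1 l l) (s1 l l)))) (s2 l (s0 (s1 l l) l)))) (s0 (s1 (s2 l (s2 l (s0 (s1 l l) l))) (s2 l (s0 (s1 l l) l))) (s1 (s2 l (s0 l l)) (s0 (s2 l l) l))))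
    (Bx.mk 281475001876480 8388608 281475186425856 25165824 281475121311744 10383360 281474976710656 0) = true := by
  decide +kernel

open Tr in
theorem tc10 : chk TK3c [] (s1 (s0 (s1 (s1 (s2 l (s0 l l)) (s2 l (s0 l l))) (s0 (s2 l (s1 l l)) (s1 l l))) (s1 (s1 (s0 (s2 l l) l) (s0 l l)) (s0 (s1 l l) (s1 l l)))) (s0 (s1 (s0 (s1 l l) (s1 l l)) (s0 (s1 l l) (s1 l l))) (s1 (s0 (s1 l l) (s1 l l)) (s0 (s1 l l) (s1 l l)))))
    (Bx.mk 281475001876480 8388608 281475261923328 50331648 281475121311744 10383360 281474976710656 0) = true := by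
  decide +kernel

open Tr in
theorem tc11 : chk TK3c [] (s0 (s1 (s0 (s1 (s2 l (s2 l (s0 l l))) (s2 l (s2 l (s0 (s1 l l) l)))) (s1 (s2 l (s2 l (s1 l l))) (s2 l (s0 (s1 l l) l)))) (s0 (s1 (s2 l (s2 l (s0 (s1 l l) l))) (s2 l (s2 l (s0 (s1 l l) l)))) (s1 (s2 l (s0 (s1 l l) l)) (s2 l (s0 (s1 l l) l))))) (s1 (s0 (s1 (s2 l (s1 l l)) (s2 l (s1 l l))) (s1 (s2 l (s1 l l)) (s2 l (s1 l l)))) (s0 (s1 (s2 l (s0 l l)) (s2 l (s0 l l))) (s1 (s2 l (s1 l l)) (s0 (s1 l l) l)))))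
    (Bx.mk 281474985099264 8388608 281475362586624 50331648 281475121311744 10383360 281474976710656 0) = true := by
  decide +kernel

end ST3

end Vale.Agent.Lib.P154
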