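import Vale.Agent.Lib.P154.ST3.Prog

/-! Generated certificates. -/

namespace Vale.Agent.Lib.P154

namespace ST3

open Tr in
theorem tc35 : chk TKCn [] (s1 (s1 (s1 (s0 (s0 l l) l) (s0 (s0 (s1 l (s0 (s1 l l) l)) l) l)) (s1 (s0 (s1 (s1 (s0 l l) l) l) l) l)) (s1 l l))
    (Bx.mk 281475014459392 37748736 281475207266304 6422528 281474976710656 0 281474976710656 0) = true := by
  decide +kernel

end ST3

end Vale.Agent.Lib.P154
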