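import Vale.Agent.Lib.P154.ST3.Prog

/-! Generated certificates. -/

namespace Vale.Agent.Lib.P154

namespace ST3

open Tr in
theorem tc36 : chk TK3f gsf (s1 l (s1 (s1 (s0 (d 0) l) (d 0)) (d 0)))
    (Bx.mk 281475043819520 67108864 281475110928384 134217728 281475121311744 10383360 281474976710656 0) = true := by
  decide +kernel

open Tr in
theorem tc37 : chk TK3f gsf (s0 (s0 (s1 l l) (s1 l (s1 l (s0 l l)))) (s0 (s0 (s1 l (s1 l (s1 l l))) (s1 (s1 l l) (s1 (s1 l l) (s1 l (s0 l l))))) (s0 (s1 (s0 l l) (s1 (s0 l l) (s0 (s1 l l) (s1 l l)))) (s1 (s0 l (s1 l l)) (s0 (s1 l (s1 l (s1 l l))) (s1 (s1 l l) (s1 l (s1 l l))))))))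
    (Bx.mk 281475178037248 67108864 281475043819520 67108864 281475121311744 10383360 281474976710656 0) = true := by
  decide +kernel

open Tr in
theorem tc38 : chk TK3f gsf (s1 (s1 (s0 (s0 l l) (s0 (s1 l l) (s1 l l))) (s0 (s1 (s0 (d 0) l) (d 0)) (s1 (s0 l (s0 l l)) (s0 (s1 l (d 0)) (s1 (s0 l l) (s0 (d 1) l)))))) (d 1))
    (Bx.mk 281475144482816 33554432 281475178037248 67108864 281475121311744 10383360 281474976710656 0) = true := by
  decide +kernel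

open Tr in
theorem tc39 : chk TK3f gsf (s0 (s1 (s1 (s0 l l) (s0 l l)) (s1 (s0 (s1 l l) (s1 l l)) (s0 (s1 l (s1 l (d 1))) (s1 (s0 l l) (s0 l l))))) (s1 (s1 (s0 l l) (s0 (s1 l l) (s1 l l))) (s1 (s0 (s1 l (s0 l l)) (s1 (s0 l l) (s0 l l))) (s0 (s1 (s0 l l) (s0 (s1 l l) (s1 l l))) (s1 (s0 (s1 l l) (s1 l l)) (s0 (s1 l l) (s1 l l)))))))
    (Bx.mk 281475194814464 16777216 281475144482816 33554432 281475121311744 10383360 281474976710656 0) = true := by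
  decide +kernel

open Tr in
theorem tc40 : chk TK3f gsf (s1 (s0 (s1 (s1 l l) (s1 l (s0 l l))) (s1 (s1 l l) (s1 (s0 l l) (s0 l l)))) (s1 (s0 (s1 (s0 l l) (s0 (s1 l l) (s1 l l))) (s1 (s0 (s2 l l) (s1 l l)) (s0 (s1 l l) (s1 l l)))) (s0 (s1 (s0 (s1 l l) (s1 l l)) (s0 (s1 l (s0 l l)) (s1 (s0 l l) (s0 l l)))) (s1 (s0 (s1 l (s0 l l)) (s1 (s0 l l) (s0 l l))) (s0 (s1 (s0 l l) (s0 l (s2 l l))) (s1 (s0 l l) (s0 (s1 l l) (s1 l l))))))))
    (Bx.mk 281475219980288 8388608 281475144482816 33554432 281475121311744 10383360 281474976710656 0) = true := by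
  decide +kernel

open Tr in
theorem tc41 : chk TK3f gsf (s1 (s1 (s0 l (s2 l l)) (s1 (s0 l l) (s0 l l))) (s1 (s1 (s0 (s1 l l) (s1 l l)) (s0 (s1 l (s0 l l)) (s1 l (s0 l l)))) (s1 (s0 (s1 (s0 l l) (s0 l l)) (s1 (s0 l l) (s0 l (s2 l l)))) (s0 (s1 (s0 (s1 l l) (s1 l l)) (s0 (s1 l l) (s1 l l))) (s1 (s0 (s1 l l) (s1 l l)) (s0 (s1 l l) (s1 l (s2 l l))))))))
    (Bx.mk 281475232563200 4194304 281475144482816 33554432 281475121311744 10383360 281474976710656 0) = true := by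
  decide +kernel

end ST3

end Vale.Agent.Lib.P154
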