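import Vale.Agent.Lib.P154.ST3.Prog

/-! Generated certificates. -/

namespace Vale.Agent.Lib.P154

namespace ST3

open Tr in
theorem tc48 : chk TK3f gsf (s0 (s1 (s0 (s1 (s0 l l) (s0 l l)) (s1 (s0 l l) (s0 l l))) (s0 (s1 (s2 l (s0 l l)) (s2 l (s0 (s1 l l) (s1 l l)))) (s1 (s2 l (s0 l l)) (s2 l (s0 (s1 l l) (s1 l l)))))) (s1 (s0 (s1 (s0 l l) (s0 l l)) (s1 (s0 l l) (s0 l l))) (s0 (s1 (s2 l (s0 l l)) (s2 l (s0 (s1 l l) (s1 l l)))) (s1 (s0 (s2 l l) l) (s2 l (s0 (s1 l l) (s1 l l)))))))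
    (Bx.mk 281475240951808 4194304 281475182231552 4194304 281475121311744 10383360 281474976710656 0) = true := by
  decide +kernel

open Tr in
theorem tc49 : chk TK3f gsf (s1 (s0 (s1 (s2 l (s0 (s1 l l) (s1 l l))) (s0 (s1 l l) (s1 l (s2 l l)))) (s1 (s0 (s1 l l) (s1 l l)) (s0 (s1 l (s2 l l)) (s2 l (s1 l l))))) (s0 (s1 (s0 (s2 l (s1 l (s2 l l))) (s2 l (s2 l (s1 l (s0 l l))))) (s0 (s2 l (s1 (s0 l l) (s0 l l))) (s2 l (s1 (s0 l l) (s0 l l))))) (s1 (s0 (s2 l (s1 (s2 l l) (s0 l l))) (s2 l (s1 (s0 l l) (s0 l l)))) (s0 (s2 l (s1 (s0 l l) (s0 l l))) (s2 l (s1 (s0 l l) (s0 l l)))))))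
    (Bx.mk 281475238854656 2097152 281475190620160 4194304 281475121311744 10383360 281474976710656 0) = true := by
  decide +kernel

open Tr in
theorem tc50 : chk TK3f gsf (s0 (s1 (s0 (s1 l l) (s1 l l)) (s0 (s2 l (s1 l l)) (s2 l (s1 l l)))) (s1 (s0 (s1 l l) (s1 l l)) (s0 (s2 l (s1 l l)) (s1 l (s2 l l)))))
    (Bx.mk 281475243048960 2097152 281475188523008 2097152 281475121311744 10383360 281474976710656 0) = true := by
  decide +kernel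

open Tr in
theorem tc51 : chk TK3f gsf (s0 (s1 (s0 (s2 l (s1 (s0 l l) (s0 l l))) (s2 l (s2 l (s1 (s2 l l) (s0 l l))))) (s0 (s2 l (s1 (s0 l l) (s0 l l))) (s2 l (s1 (s0 l l) (s0 l l))))) (s1 (s0 (s2 l (s2 l (s1 l (s0 l l)))) (s2 l (s2 l (s1 l (s0 l l))))) (s0 (s2 l (s1 (s0 l l) (s0 l l))) (s2 l (s1 (s0 l l) (s0 l l))))))
    (Bx.mk 281475243048960 2097152 281475192717312 2097152 281475121311744 10383360 281474976710656 0) = true := by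
  decide +kernel

open Tr in
theorem tc52 : chk TK3f gsf (s1 (s0 (d 1) (s1 (s0 (s1 (s0 (s0 (d 1) (s1 (s1 (s0 l l) (d 1)) (d 1))) (s0 (s1 (s2 l (s0 l l)) (d 1)) (s1 (s2 l (s2 l (s0 l l))) (s0 (d 1) (s1 l (d 1)))))) (d 1)) (s0 (s1 (s0 (s2 l (s1 (s2 l (s0 l l)) (s2 l (s0 (s1 l (d 1)) (s1 l l))))) (s2 l (s1 (s2 l (s0 l l)) (s2 l (s0 (s1 l l) (s1 l l)))))) (s0 (d 1) (s1 (s0 (d 1) (s1 l (d 1))) (d 1)))) (s1 (s0 (s2 l (s1 (s0 l l) (s2 l (s2 l (s0 l l))))) (s2 l (s1 (s0 l l) (s2 l (s0 l l))))) (s1 (s0 (s1 (s0 l l) (d 1)) (s2 l (s2 l (s0 (s1 l l) (s1 l l))))) (d 1))))) (d 1))) (d 1))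
    (Bx.mk 281475236757504 8388608 281475203203072 8388608 281475121311744 10383360 281474976710656 0) = true := by
  decide +kernel

open Tr in
theorem tc53 : chk TK3f gsf (d 1)
    (Bx.mk 281475211591680 33554432 281475228368896 16777216 281475121311744 10383360 281474976710656 0) = true := by
  decide +kernel

end ST3

end Vale.Agent.Lib.P154
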