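import Vale.Agent.Lib.P154.ST3.Prog

/-! Generated certificates. -/

namespace Vale.Agent.Lib.P154

namespace ST3

open Tr in
theorem tc12 : chk TK3c [] (s0 (s1 (s0 (s1 (s1 l l) (s0 (s1 l l) l)) (s1 (s1 l l) (s1 l l))) (s0 (s1 (s0 l l) (s0 l l)) (s1 (s0 l l) (s0 l l)))) (s1 (s1 (s0 (s1 l l) (s1 l l)) (s0 (s1 l l) (s1 l l))) (s0 (s1 (s0 l l) (s0 l l)) (s1 (s1 l l) (s0 l l)))))
    (Bx.mk 281475001876480 8388608 281475362586624 50331648 281475121311744 10383360 281474976710656 0) = true := by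
  decide +kernel

open Tr in
theorem tc13 : chk TK3c [] (s0 (s0 (s0 (s1 (s2 l (s2 l (s0 (s1 l l) l))) (s2 l (s2 l (s0 (s1 l l) l)))) (s1 (s2 l (s0 (s1 l l) l)) (s2 l (s0 (s1 l l) l)))) (s0 (s1 (s2 l (s0 l l)) (s2 l (s0 l l))) (s1 (s0 (s1 l l) l) (s0 (s1 l l) l)))) (s0 (s0 (s1 (s0 l l) (s0 l l)) (s1 (s0 l l) (s0 l l))) (s0 (s1 (s0 l l) (s0 l l)) (s1 (s0 l l) (s0 l l)))))
    (Bx.mk 281474993487872 16777216 281475438084096 25165824 281475121311744 10383360 281474976710656 0) = true := by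
  decide +kernel

open Tr in
theorem tc14 : chk TK3c [] (s1 (s0 (s0 (s0 (s2 l (s0 (s1 l l) (s1 l l))) (s2 l (s0 (s1 l l) l))) (s0 (s2 l (s0 l l)) (s0 (s1 l l) l))) (s0 (s0 (s0 l l) (s0 l l)) (s0 (s0 l l) (s0 l l)))) (s0 (s0 (s0 (s2 l (s0 (s1 l l) (s1 l l))) (s2 l (s0 (s1 l l) l))) (s0 (s2 l (s0 l l)) (s0 (s1 l l) (s1 l l)))) (s0 (s0 (s0 l l) (s0 l l)) (s0 (s0 l l) (s0 l l)))))
    (Bx.mk 281474993487872 16777216 281475488415744 25165824 281475121311744 10383360 281474976710656 0) = true := by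
  decide +kernel

end ST3

end Vale.Agent.Lib.P154
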