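import Vale.Agent.Lib.P154.ST3.Prog

/-! Generated certificates. -/

namespace Vale.Agent.Lib.P154

namespace ST3

open Tr in
theorem tc20 : chk TKBu gsc (s1 (s0 (s1 (s0 (s1 (s1 l l) l) (s1 (s0 l l) (s1 l l))) (s0 (s1 l l) (s1 (s1 l l) (s1 l l)))) (s1 (s0 (s1 (s0 (s1 l l) (s1 l l)) (s0 l (s1 l l))) (s1 (s0 (s1 (s1 l l) l) (s1 (s1 l l) l)) (s1 (s0 l l) (s1 l l)))) (s0 (s1 (s1 l l) (s1 l l)) (s1 (s0 l (s1 l l)) (s1 l l))))) (s0 (s1 (s0 (s1 l l) (s1 l l)) (s0 (s1 l l) (s1 l l))) (s1 (s0 (s1 (s1 l l) l) (s1 (s1 l l) l)) (s0 (s1 l l) (s1 l l)))))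
    (Bx.mk 281474980904960 4194304 281475161260032 50331648 281474976710656 0 281474976710656 0) = true := by
  decide +kernel

open Tr in
theorem tc21 : chk TKBu gsc (s0 (s1 (s0 (s1 (s1 (s0 (s1 l l) (s1 (s1 l l) l)) (s0 l (s1 l l))) (s1 (s0 l l) (s1 l l))) (s1 (s1 (s0 (s1 l l) (s1 l l)) (s0 (s1 l l) l)) (s1 (s0 l l) (s1 l l)))) (s1 (s0 (s1 (s1 l l) l) (s1 l l)) (s0 (s1 l l) (s1 l l)))) (s1 (s1 (s0 (s1 (s0 (s1 l l) (s1 l l)) (s0 l l)) (s1 (s0 l l) (s1 l l))) (s0 (s1 (s1 l l) (s1 l l)) (s1 (s1 l l) l))) (s1 (s0 (s1 l l) (s1 l l)) (s0 (s1 l l) (s1 l l)))))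
    (Bx.mk 281474989293568 4194304 281475136094208 25165824 281474976710656 0 281474976710656 0) = true := by
  decide +kernel

open Tr in
theorem tc22 : chk TKBu gsc (s1 (s0 (s1 (s0 (s1 l l) (s1 l l)) (s0 l l)) (s1 (s0 l l) (s0 l l))) (s0 (s1 (s0 l l) (s0 l l)) (s1 (s1 l l) (s1 l l))))
    (Bx.mk 281474989293568 4194304 281475186425856 25165824 281474976710656 0 281474976710656 0) = true := by
  decide +kernel

open Tr in
theorem tc23 : chk TKBu gsc (s0 (s1 (s1 (s0 (s1 (s0 (s1 (s0 l l) (s1 l l)) (s1 (s1 l l) l)) (s0 (s1 l l) (s1 l l))) (s0 (s1 (s1 l l) (s0 l (d 0))) (d 0))) (s0 (s1 (s0 (s1 l l) (s1 l l)) (s0 l l)) (s0 (s1 l l) (d 0)))) (s1 (s0 (s1 (s0 l l) (s1 l l)) (s0 (s1 l l) (d 0))) (s0 (s1 (s1 l l) (s1 l l)) (s1 l l)))) (d 0))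
    (Bx.mk 281475001876480 8388608 281475161260032 50331648 281474976710656 0 281474976710656 0) = true := by
  decide +kernel

open Tr in
theorem tc24 : chk TKBu gsc (s0 (s1 (s0 (s1 (s0 (s1 l l) (s1 l l)) (s0 (s1 l l) (s1 l l))) (s1 (s0 (s1 l l) (s1 l l)) (s0 (s1 l l) (s1 l l)))) (s0 (s1 (s0 (s1 l l) (s1 l l)) (s0 (s1 l l) (s1 l l))) (s1 (s0 (s1 l l) (s1 l l)) (s0 (s1 l l) l)))) (s1 (s1 (s0 (s0 (s1 l l) (s1 l l)) (s1 (s1 l l) l)) (s0 (s0 (s1 l l) l) (s1 l l))) (s0 (s1 (s1 l l) (s1 l l)) (s1 (s1 l l) (s1 l l)))))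
    (Bx.mk 281474985099264 8388608 281475261923328 50331648 281474976710656 0 281474976710656 0) = true := by
  decide +kernel

open Tr in
theorem tc25 : chk TKBu gsc (s0 (s1 (s1 (s0 (s1 l l) (s0 l (d 0))) (s0 (s1 l l) (s1 l (d 0)))) (s0 (s1 (s1 l l) (s1 l l)) (s1 (d 0) (d 0)))) (s1 (d 0) (d 0)))
    (Bx.mk 281475001876480 8388608 281475261923328 50331648 281474976710656 0 281474976710656 0) = true := by
  decide +kernel

end ST3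

end Vale.Agent.Lib.P154
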