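import Vale.Agent.Lib.P154.ST3.Prog

/-! Generated certificates. -/

namespace Vale.Agent.Lib.P154

namespace ST3

open Tr in
theorem tc28 : chk TKRl gsc (s1 (s1 (s0 (s1 (s0 l l) (s0 l l)) (s1 (s0 (s1 (s0 l (s1 (s0 (s1 (s0 l (d 0)) (s0 l (d 0))) (d 0)) (s0 (s1 (s0 l (d 0)) (s0 l (d 0))) (d 0)))) (s0 l (s1 (s0 (s1 (s0 l (d 0)) (s0 l (d 0))) (d 0)) (s0 (s1 l l) (d 0))))) (d 0)) (s0 (s1 (s0 l (s1 (s0 l (d 0)) (s0 l (d 0)))) (s0 l (s1 (s0 l (d 0)) (s0 l (d 0))))) (d 0)))) (s0 (s1 (s0 l l) (s0 l l)) (s1 (s0 (s1 (s0 l (s1 (s0 l (d 0)) (s0 l (d 0)))) (s0 l (s1 l l))) (d 0)) (s0 (s1 (s0 l l) (s0 l l)) (d 0))))) (s1 (s0 (s1 (s0 l l) (s0 l l)) (s1 (s0 (s1 l l) (d 0)) (s0 l (d 0)))) (s0 (s1 (s0 l l) l) (s1 (s0 l (d 0)) (s0 l (d 0))))))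
    (Bx.mk 281474993487872 16777216 281475161260032 50331648 281474976710656 0 281474976710656 0) = true := by
  decide +kernel

open Tr in
theorem tc29 : chk TKRl gsc (s1 (s1 (s0 (s1 l l) (s1 l l)) (s0 (s1 l l) (s1 l l))) (s1 (s0 (s1 l l) (s1 l l)) (s0 (s1 l l) (s1 l l))))
    (Bx.mk 281474993487872 16777216 281475261923328 50331648 281474976710656 0 281474976710656 0) = true := by
  decide +kernel

open Tr in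
theorem tc30 : chk TKRl gsc (s1 (s1 (s1 (s0 (s1 (s0 l l) (s0 l l)) (s1 l l)) (s0 (s1 (s0 l l) (s0 l l)) (s1 (s0 l (d 0)) (s0 l (d 0))))) (s1 (s0 (s1 (s0 l l) (s0 l l)) (s1 (s0 l (d 0)) (s0 l (d 0)))) (s0 (s1 (s0 l l) (s0 l l)) (s1 (s0 l (d 0)) (s0 l (d 0)))))) (s1 (s1 (s0 (s1 (s0 l l) (s0 l l)) (s1 (s0 l (d 0)) (s0 l (d 0)))) (s0 (s1 (s0 l l) (s0 l l)) (s1 (s0 l (d 0)) (s0 l (d 0))))) (s1 (s0 (s1 (s0 l l) (s0 l l)) (s1 (s0 l (d 0)) (s0 l (d 0)))) (s0 (s1 (s0 l l) (s0 l l)) (s1 (s0 l (d 0)) (s0 l (d 0)))))))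
    (Bx.mk 281474993487872 16777216 281475412918272 100663296 281474976710656 0 281474976710656 0) = true := by
  decide +kernel

end ST3

end Vale.Agent.Lib.P154
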