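import Vale.Agent.Lib.P154.ST3.Prog

/-! Generated certificates. -/

namespace Vale.Agent.Lib.P154

namespace ST3

open Tr in
theorem tc31 : chk TKRu gsc (s0 (s1 (s1 (s1 l l) (s1 l l)) (s1 (s1 l l) (s1 l (s1 l l)))) (s1 (s1 (s0 l (d 0)) (s0 l (d 0))) (s1 (s0 (s1 l l) (d 0)) (s0 (s1 l (s0 l (d 0))) (d 0)))))
    (Bx.mk 281474993487872 16777216 281475211591680 100663296 281474976710656 0 281474976710656 0) = true := by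
  decide +kernel

open Tr in
theorem tc32 : chk TKRu gsc (s1 (s0 (s1 (s1 (s1 l l) (s0 l l)) (s0 (s1 l l) (s1 (s1 l l) (s1 l l)))) (s0 (s1 (s0 (s1 l l) (d 0)) (s0 (s1 (s1 l l) (s0 l (s1 (d 0) (d 0)))) (d 0))) (s1 (d 0) (d 0)))) (s1 (s0 (s0 (s1 l l) (s1 (s0 l (s1 l l)) (s0 l (s1 l l)))) (s1 (s0 (s0 (s0 (s1 l l) (d 0)) (d 0)) (d 0)) (s0 (s0 (s0 (s1 (s1 l l) (s0 l (d 0))) (d 0)) (d 0)) (d 0)))) (s0 (s0 (s1 l l) (s1 (s0 l (s0 l (s1 l l))) (s0 l (s0 l (s0 l (s1 l (s1 l l))))))) (s1 (s0 (s0 (s0 (s0 (s1 l (s0 l (d 0))) (d 0)) (d 0)) (d 0)) (d 0)) (s1 (s0 (s0 (s0 (s0 (s0 (s1 l (s0 l (d 0))) (d 0)) (d 0)) (d 0)) (d 0)) (d 0)) (s0 (s0 (s0 (s0 (s0 (s0 (s0 (s1 l (d 0)) (d 0)) (d 0)) (d 0)) (d 0)) (d 0)) (d 0)) (d 0)))))))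
    (Bx.mk 281474993487872 16777216 281475412918272 100663296 281474976710656 0 281474976710656 0) = true := by
  decide +kernel

end ST3

end Vale.Agent.Lib.P154
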